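import Mathlib
import Vale.Agent.Lib.P201.Small

namespace Vale.Agent.Results.P201.SupportAtLeastThree

/-- Let `K` be a field and `G` a torsion-free group (stated explicitly: `g ^ n = 1` with
`n > 0` forces `g = 1`).  If `α, β` are nonzero elements of the group algebra `K[G]` with
`α * β = 0`, then each of `α` and `β` has at least three group elements in its support.
Equivalently: a nonzero element of `K[G]` whose support has at most two elements is neither a
left nor a right zero divisor. -/
theorem result (K G : Type*) [Field K] [Group G]
    (hG : ∀ g : G, ∀ n : ℕ, 0 < n → g ^ n = 1 → g = 1)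
    (α β : MonoidAlgebra K G) (hα : α ≠ 0) (hβ : β ≠ 0) (h : α * β = 0) :
    3 ≤ α.coeff.support.card ∧ 3 ≤ β.coeff.support.card := by
  constructor
  · by_contra hlt
    exact hβ (Vale.Agent.Lib.P201.left_small hG α β hα (by omega) h)
  · by_contra hlt
    exact hα (Vale.Agent.Lib.P201.right_small hG α β hβ (by omega) h)

end Vale.Agent.Results.P201.SupportAtLeastThree
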